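import Vale.Agent.P062.M.Root
import Vale.Agent.P062.M.A.acL9F0

namespace Vale.Agent.P062.M

open Vale.Agent.P062

/-- Maker, owning the origin and to move, beats the Breaker stone at (1, 0). -/
theorem rootA : MakerWins Set.univ {(0, 0)} {(1, 0)} :=
  win_root0 ac1904 522 523 (by decide +kernel) (by decide +kernel) (by norm_num) (1, 0)
    (by norm_num) (by norm_num)

end Vale.Agent.P062.M
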